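import Vale.Agent.P032.R2.H838.Chord
import Vale.Agent.P032.S5.H767.Raw

/-!
# P032: the chord point as a function of the angle (wild)

`cpt g q` : the intersection point of the unit circles about `q` and `g` which is near `z` if `g` is
near `y = pt z t₀` and `q = pt z u`, `t₀ < u < t₀ + 3`.

`Irr.exists_chord_pt` : if `z ∉ U s` there are `t₀`, points `g m` of `U s` off `S(z)` tending to
`y = pt z t₀`, and the functions `w m u = cpt (g m) (pt z u)`, continuous in `u`, at distance one from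
`pt z u` and from `g m` (so free of `s`), different from `z` and uniformly near `z` for `u` in a
compact part of `(t₀, t₀ + 3)`.
-/

open Set Filter Topology Metric

noncomputable section

namespace Vale.Agent.P032.Six

open Vale.Agent.P032.S5.H767 (pt dist_pt continuous_pt cis_add)

variable {k : ℕ} {U : Fin k → Set ℂ} {T : ℂ → Set (Fin k)}

/-- an intersection point of the unit circles about `q` and `g` -/
def cpt (g q : ℂ) : ℂ :=
  (q + g) / 2 - (Real.sqrt (1 - ‖g - q‖ ^ 2 / 4) : ℂ) * (Complex.I * (g - q)) / (‖g - q‖ : ℂ)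

theorem cpt_aux {g q : ℂ} (hgq : g ≠ q) (h2 : ‖g - q‖ ≤ 2) {e : ℝ} (he : e ^ 2 = 1) :
    ‖(g - q) * ((e / 2 : ℝ) - Complex.I * (Real.sqrt (1 - ‖g - q‖ ^ 2 / 4) / ‖g - q‖ : ℝ))‖ = 1 := by
  set d : ℝ := ‖g - q‖ with hd
  have hd0 : 0 < d := norm_pos_iff.2 (sub_ne_zero.2 hgq)
  have hs : Real.sqrt (1 - d ^ 2 / 4) ^ 2 = 1 - d ^ 2 / 4 :=
    Real.sq_sqrt (by nlinarith)
  set c : ℝ := Real.sqrt (1 - d ^ 2 / 4) with hc
  have h1 : ‖((e / 2 : ℝ) : ℂ) - Complex.I * ((c / d : ℝ) : ℂ)‖ ^ 2 = (e / 2) ^ 2 + (c / d) ^ 2 := by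
    rw [Complex.sq_norm, Complex.normSq_apply]
    simp
    ring
  have h3 : (‖g - q‖ * ‖((e / 2 : ℝ) : ℂ) - Complex.I * ((c / d : ℝ) : ℂ)‖) ^ 2 = 1 := by
    rw [mul_pow, h1, ← hd]
    have e1 : d ^ 2 * ((e / 2) ^ 2 + (c / d) ^ 2) = d ^ 2 * e ^ 2 / 4 + c ^ 2 := by
      field_simp
      ring
    rw [e1, he, hs]
    ring
  rw [norm_mul]
  have h4 : 0 ≤ ‖g - q‖ * ‖((e / 2 : ℝ) : ℂ) - Complex.I * ((c / d : ℝ) : ℂ)‖ := by positivity
  nlinarith

theorem cpt_dist {g q : ℂ} (hgq : g ≠ q) (h2 : ‖g - q‖ ≤ 2) :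
    dist (cpt g q) q = 1 ∧ dist (cpt g q) g = 1 := by
  have hd0 : (‖g - q‖ : ℂ) ≠ 0 := by
    exact_mod_cast (norm_pos_iff.2 (sub_ne_zero.2 hgq)).ne'
  constructor
  · rw [dist_eq_norm, ← cpt_aux hgq h2 (e := 1) (by norm_num)]
    congr 1
    unfold cpt
    push_cast
    field_simp
    ring
  · rw [dist_eq_norm, ← cpt_aux hgq h2 (e := -1) (by norm_num)]
    congr 1
    unfold cpt
    push_cast
    field_simp
    ring

theorem continuousAt_cpt {g q : ℂ} (hgq : g ≠ q) :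
    ContinuousAt (fun p : ℂ × ℂ => cpt p.1 p.2) (g, q) := by
  have hd0 : (‖g - q‖ : ℂ) ≠ 0 := by
    exact_mod_cast (norm_pos_iff.2 (sub_ne_zero.2 hgq)).ne'
  unfold cpt
  refine ContinuousAt.sub (by fun_prop) (ContinuousAt.div (by fun_prop) (by fun_prop) hd0)

/-- two points of `S(z)` at angle less than `π` -/
theorem cpt_circle {z : ℂ} {α β : ℝ} (h1 : β < α) (h2 : α < β + Real.pi) :
    cpt (z + cis β) (z + cis α) = z ∧ z + cis β ≠ z + cis α ∧
      ‖z + cis β - (z + cis α)‖ < 2 := by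
  set γ : ℝ := (α + β) / 2 with hγ
  set δ : ℝ := (α - β) / 2 with hδ
  have hα : α = γ + δ := by rw [hγ, hδ]; ring
  have hβ : β = γ + (-δ) := by rw [hγ, hδ]; ring
  have hδ0 : 0 < δ := by rw [hδ]; linarith
  have hδ1 : δ < Real.pi / 2 := by rw [hδ]; linarith
  have hsin : 0 < Real.sin δ := Real.sin_pos_of_pos_of_lt_pi hδ0 (by linarith [Real.pi_pos])
  have hcos : 0 < Real.cos δ := Real.cos_pos_of_mem_Ioo ⟨by linarith [Real.pi_pos], hδ1⟩
  have hcis : cis δ = (Real.cos δ : ℂ) + (Real.sin δ : ℂ) * Complex.I := by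
    unfold cis
    rw [Complex.exp_mul_I, Complex.ofReal_cos, Complex.ofReal_sin]
  have hcis' : cis (-δ) = (Real.cos δ : ℂ) - (Real.sin δ : ℂ) * Complex.I := by
    unfold cis
    rw [Complex.ofReal_neg, Complex.exp_mul_I, Complex.cos_neg, Complex.sin_neg,
      Complex.ofReal_cos, Complex.ofReal_sin]
    ring
  have hsub : z + cis β - (z + cis α) = cis γ * (-(2 * (Real.sin δ : ℂ)) * Complex.I) := by
    rw [hα, hβ, cis_add, cis_add, hcis, hcis']
    ring
  have hnorm : ‖z + cis β - (z + cis α)‖ = 2 * Real.sin δ := by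
    rw [hsub, norm_mul, norm_cis, norm_mul, norm_neg, norm_mul, Complex.norm_I, Complex.norm_real,
      Real.norm_of_nonneg hsin.le]
    simp
  have hsqrt : Real.sqrt (1 - (2 * Real.sin δ) ^ 2 / 4) = Real.cos δ := by
    rw [← Real.sqrt_sq hcos.le]
    congr 1
    have := Real.sin_sq_add_cos_sq δ
    nlinarith
  refine ⟨?_, ?_, ?_⟩
  · unfold cpt
    rw [hnorm, hsqrt, hsub]
    have hs0 : (Real.sin δ : ℂ) ≠ 0 := by exact_mod_cast hsin.ne'
    have e1 : (z + cis α + (z + cis β)) / 2 = z + cis γ * (Real.cos δ : ℂ) := by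
      rw [hα, hβ, cis_add, cis_add, hcis, hcis']
      ring
    have e2 : (Real.cos δ : ℂ) * (Complex.I * (cis γ * (-(2 * (Real.sin δ : ℂ)) * Complex.I))) /
        ((2 * Real.sin δ : ℝ) : ℂ) = cis γ * (Real.cos δ : ℂ) := by
      rw [Complex.ofReal_mul, Complex.ofReal_ofNat, div_eq_iff (mul_ne_zero two_ne_zero hs0)]
      linear_combination (-(2 : ℂ) * Real.cos δ * cis γ * Real.sin δ) * Complex.I_sq
    rw [e1, e2, add_sub_cancel_right]
  · intro h
    rw [h, sub_self, norm_zero] at hnorm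
    linarith
  · rw [hnorm]
    have h3 := Real.sin_sq_add_cos_sq δ
    nlinarith

theorem cpt_pt {z : ℂ} {t u : ℝ} (h1 : t < u) (h2 : u < t + 3) :
    cpt (pt z t) (pt z u) = z ∧ pt z t ≠ pt z u ∧ ‖pt z t - pt z u‖ < 2 := by
  unfold pt
  refine cpt_circle ?_ ?_
  · nlinarith [Real.pi_pos]
  · nlinarith [Real.pi_pos]

/-- uniformly on compact sets of angles -/
theorem cpt_uniform {z : ℂ} {t a b : ℝ} (ha : t < a) (hb : b < t + 3) {ε : ℝ} (hε : 0 < ε) :
    ∀ᶠ g in 𝓝 (pt z t), ∀ u ∈ Icc a b, dist (cpt g (pt z u)) z < ε ∧ g ≠ pt z u ∧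
      ‖g - pt z u‖ < 2 := by
  refine isCompact_Icc.eventually_forall_of_forall_eventually fun u hu => ?_
  obtain ⟨e1, e2, e3⟩ := cpt_pt (z := z) (t := t) (u := u) (lt_of_lt_of_le ha hu.1)
    (lt_of_le_of_lt hu.2 hb)
  have hp : ContinuousAt (fun p : ℂ × ℝ => (p.1, pt z p.2)) (pt z t, u) :=
    (continuous_fst.prodMk ((continuous_pt z).comp continuous_snd)).continuousAt
  have hc : ContinuousAt (fun p : ℂ × ℝ => cpt p.1 (pt z p.2)) (pt z t, u) :=
    ContinuousAt.comp (f := fun p : ℂ × ℝ => (p.1, pt z p.2))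
      (g := fun p : ℂ × ℂ => cpt p.1 p.2) (x := (pt z t, u)) (continuousAt_cpt e2) hp
  have hs : ContinuousAt (fun p : ℂ × ℝ => p.1 - pt z p.2) (pt z t, u) :=
    (continuous_fst.sub ((continuous_pt z).comp continuous_snd)).continuousAt
  have f1 : ∀ᶠ p : ℂ × ℝ in 𝓝 (pt z t, u), dist (cpt p.1 (pt z p.2)) z < ε := by
    have h1 : ContinuousAt (fun p : ℂ × ℝ => dist (cpt p.1 (pt z p.2)) z) (pt z t, u) :=
      hc.dist continuousAt_const
    refine h1.eventually (Iio_mem_nhds ?_)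
    show dist (cpt (pt z t) (pt z u)) z < ε
    rw [e1, dist_self]
    exact hε
  have f2 : ∀ᶠ p : ℂ × ℝ in 𝓝 (pt z t, u), p.1 - pt z p.2 ≠ 0 :=
    hs.eventually (isOpen_ne.mem_nhds (sub_ne_zero.2 e2))
  have f3 : ∀ᶠ p : ℂ × ℝ in 𝓝 (pt z t, u), ‖p.1 - pt z p.2‖ < 2 :=
    hs.norm.eventually (Iio_mem_nhds e3)
  filter_upwards [f1, f2, f3] with p h1 h2 h3
  exact ⟨h1, sub_ne_zero.1 h2, h3⟩

/-- **The chords free of `s` as functions of the angle.** -/
theorem Irr.exists_chord_pt (h : Irr U T) {z : ℂ} {s : Fin k} (hz : z ∉ U s) :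
    ∃ (t₀ : ℝ) (g : ℕ → ℂ) (w : ℕ → ℝ → ℂ), s ∈ Pal U (pt z t₀) ∧ (∀ m, g m ∈ U s) ∧
      Tendsto g atTop (𝓝 (pt z t₀)) ∧
      ((∀ m, dist z (g m) < 1) ∨ ∀ m, 1 < dist z (g m)) ∧
      (∀ m, Continuous (w m)) ∧
      ∀ a b, t₀ < a → b < t₀ + 3 → ∀ ε > 0, ∀ᶠ m in atTop, ∀ u ∈ Icc a b,
        dist (w m u) z < ε ∧ w m u ≠ z ∧ dist (w m u) (pt z u) = 1 ∧ dist (w m u) (g m) = 1 ∧
        s ∉ Pal U (w m u) ∧ s ∉ T (w m u) ∧ dist (w m u + z - pt z u) z = 1 ∧
        dist (w m u + z - pt z u) (w m u) = 1 ∧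
        dist (w m u + z - pt z u) (2 * z - pt z u) < ε := by
  obtain ⟨y, hzy, hsy, σ, hσ, hg⟩ := h.exists_side hz
  obtain ⟨θ, hθ⟩ := exists_cis (u := y - z) (by rw [← dist_eq_norm, dist_comm]; exact hzy)
  have hpi : (Real.pi / 3) ≠ 0 := by positivity
  have hy : y = pt z (θ / (Real.pi / 3)) := by
    unfold pt
    rw [div_mul_cancel₀ _ hpi, ← hθ]
    ring
  obtain ⟨g, hgy, hgP⟩ := exists_seq_forall_of_frequently hg
  have hoff : ∀ m u, g m ≠ pt z u := by
    intro m u hc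
    have h1 := (hgP m).2
    rw [hc, dist_comm, dist_pt] at h1
    linarith
  refine ⟨θ / (Real.pi / 3), g, fun m u => cpt (g m) (pt z u), ?_, fun m => (hgP m).1, ?_, ?_,
    fun m => ?_, fun a b ha hb ε hε => ?_⟩
  · rw [← hy]; exact hsy
  · rw [← hy]; exact hgy
  · rcases hσ with rfl | rfl
    · left
      intro m
      linarith [(hgP m).2]
    · right
      intro m
      linarith [(hgP m).2]
  · rw [continuous_iff_continuousAt]
    intro u
    have hp : ContinuousAt (fun u : ℝ => (g m, pt z u)) u :=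
      (continuous_const.prodMk (continuous_pt z)).continuousAt
    exact ContinuousAt.comp (f := fun u : ℝ => (g m, pt z u))
      (g := fun p : ℂ × ℂ => cpt p.1 p.2) (x := u) (continuousAt_cpt (hoff m u)) hp
  · have h1 := (hgy.eventually (by rw [hy]; exact cpt_uniform (z := z) ha hb hε))
    filter_upwards [h1] with m hm u hu
    obtain ⟨e1, e2, e3⟩ := hm u hu
    obtain ⟨d1, d2⟩ := cpt_dist e2 e3.le
    have hs : s ∉ Pal U (cpt (g m) (pt z u)) := fun hc =>
      h.mx.free s (g m) (hgP m).1 _ hc (by rw [dist_comm]; exact d2)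
    refine ⟨e1, ?_, d1, d2, hs, fun hc => hs (h.sub _ hc), ?_, ?_, ?_⟩
    · intro hc
      rw [hc] at d2
      have h3 := (hgP m).2
      rw [d2] at h3
      linarith
    · rw [← d1, dist_eq_norm, dist_eq_norm]
      congr 1
      ring
    · rw [← dist_pt z u, dist_eq_norm, dist_eq_norm, ← norm_neg]
      congr 1
      ring
    · rw [dist_eq_norm] at e1 ⊢
      have : cpt (g m) (pt z u) + z - pt z u - (2 * z - pt z u) = cpt (g m) (pt z u) - z := by
        ring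
      rw [this]
      exact e1

end Vale.Agent.P032.Six
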