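import Vale.Agent.P032.S5.H80.Ray

/-!
# P032: chords free of a colour, the covering half plane (wild)

`z` is not in `U s`.  Then there is a point `y` of `S(z)` in the closure of `U s` and points `g` of
`U s` tending to `y` on one side of `S(z)` (`σ = 1` inside, `σ = -1` outside): `Irr.exists_side`.
The unit circle about `g` near `z` is free of `s` and meets every half line from `z` with
`σ * ip u (y - z) < 0` near `z` (`ray_crossing`, `Irr.exists_chord`).  Hence some colour `c ≠ s`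
accumulates at `z` on this half line (`Irr.cover_half`) and the half line is in the half plane of every
exact near letter `c`, and in the opposite one for every exact far letter (`Irr.near_half`,
`Irr.far_half`).
-/

open Set Filter Topology Metric

noncomputable section

namespace Vale.Agent.P032.Six

variable {k : ℕ} {U : Fin k → Set ℂ} {T : ℂ → Set (Fin k)}

/-- the unit circle about `g` near `y`, `g` on one side of `S(z)`, crosses the half line `z + r u`
near `z` -/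
theorem ray_crossing {σ : ℝ} (hσ : σ = 1 ∨ σ = -1) {z u y : ℂ} (h0 : dist z y = 1)
    (hip : σ * ip u (y - z) < 0) {η : ℝ} (hη : 0 < η) :
    ∀ᶠ g in 𝓝 y, σ * dist z g < σ → ∃ r : ℝ, 0 < r ∧ r < η ∧ dist (z + r * u) g = 1 := by
  have huu : 0 ≤ ip u u := by
    unfold ip
    nlinarith [sq_nonneg u.re, sq_nonneg u.im]
  set t : ℝ := min (η / 2) (-(σ * ip u (y - z)) / (ip u u + 1)) with ht
  have ht0 : 0 < t := lt_min (by linarith) (div_pos (by linarith) (by linarith))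
  have ht1 : t < η := lt_of_le_of_lt (min_le_left _ _) (by linarith)
  have ht2 : t * (ip u u + 1) ≤ -(σ * ip u (y - z)) := by
    rw [← le_div_iff₀ (by linarith)]
    exact min_le_right _ _
  have hsq : σ * (dist (z + t * u) y ^ 2 - 1) > 0 := by
    rw [sq_line, h0]
    have e1 : σ * (1 ^ 2 - 2 * t * ip u (y - z) + t ^ 2 * ip u u - 1) =
        t * (2 * (-(σ * ip u (y - z))) + σ * (t * ip u u)) := by ring
    rw [e1]
    refine mul_pos ht0 ?_
    have h2 : 0 ≤ t * ip u u := mul_nonneg ht0.le huu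
    rcases hσ with rfl | rfl
    · nlinarith
    · nlinarith
  have hd : 0 < σ * (dist (z + t * u) y - 1) := by
    have h1 := dist_nonneg (x := z + t * u) (y := y)
    have h2 : σ * (dist (z + t * u) y ^ 2 - 1) =
        (σ * (dist (z + t * u) y - 1)) * (dist (z + t * u) y + 1) := by ring
    rw [h2] at hsq
    by_contra hc
    have := mul_nonpos_of_nonpos_of_nonneg (not_lt.1 hc)
      (by linarith : (0 : ℝ) ≤ dist (z + t * u) y + 1)
    linarith
  have e1 : ∀ᶠ g in 𝓝 y, 0 < σ * (dist (z + t * u) g - 1) := by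
    have hc : Continuous fun g : ℂ => σ * (dist (z + t * u) g - 1) := by fun_prop
    exact hc.continuousAt.eventually (Ioi_mem_nhds hd)
  filter_upwards [e1] with g hg hgz
  have hcont : ContinuousOn (fun r : ℝ => σ * (dist (z + r * u) g - 1)) (Icc 0 t) := by fun_prop
  have hz0 : σ * (dist (z + (0 : ℝ) * u) g - 1) < 0 := by
    rw [Complex.ofReal_zero, zero_mul, add_zero]
    linarith
  obtain ⟨r, hr, hr0⟩ := intermediate_value_Icc ht0.le hcont ⟨hz0.le, hg.le⟩
  have hr0' : dist (z + r * u) g = 1 := by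
    have h1 : σ * (dist (z + r * u) g - 1) = 0 := hr0
    rcases mul_eq_zero.1 h1 with h2 | h2
    · rcases hσ with rfl | rfl <;> norm_num at h2
    · linarith
  refine ⟨r, ?_, lt_of_le_of_lt hr.2 ht1, hr0'⟩
  refine lt_of_le_of_ne hr.1 ?_
  rintro rfl
  have h1 : σ * (dist (z + ((0 : ℝ) : ℂ) * u) g - 1) = 0 := hr0
  linarith

/-- points of `U s` tend to a point of `S(z)` on one side -/
theorem Irr.exists_side (h : Irr U T) {z : ℂ} {s : Fin k} (hz : z ∉ U s) :
    ∃ y, dist z y = 1 ∧ s ∈ Pal U y ∧ ∃ σ : ℝ, (σ = 1 ∨ σ = -1) ∧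
      ∃ᶠ g in 𝓝 y, g ∈ U s ∧ σ * dist z g < σ := by
  have h1 : ¬ ∀ y ∈ closure (U s), dist z y ≠ 1 := fun hc => hz (h.max s z hc)
  push Not at h1
  obtain ⟨y, hy, hzy⟩ := h1
  refine ⟨y, hzy, hy, ?_⟩
  by_contra hcon
  push Not at hcon
  have h2 := hcon 1 (Or.inl rfl)
  have h3 := hcon (-1) (Or.inr rfl)
  obtain ⟨g, ⟨hgU, hg⟩, hgz⟩ := exists_off (h.mx.isOpen s) (z := z) hy (h2.and h3)
  rw [dist_comm] at hgz
  have e1 := hg.1 hgU
  have e2 := hg.2 hgU
  exact hgz (by linarith)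

/-- **the chords**: `g` near `y` in `U s`; the unit circle about `g` is free of `s` and meets the half
lines `u ∈ F` near `z` -/
theorem Irr.exists_chord (h : Irr U T) {z y : ℂ} {s : Fin k} {σ : ℝ} (hσ : σ = 1 ∨ σ = -1)
    (hzy : dist z y = 1) (hg : ∃ᶠ g in 𝓝 y, g ∈ U s ∧ σ * dist z g < σ) {F : Set ℂ}
    (hF : F.Finite) (hip : ∀ u ∈ F, σ * ip u (y - z) < 0) {η : ℝ} (hη : 0 < η) {N : Set ℂ}
    (hN : N ∈ 𝓝 y) :
    ∃ g ∈ N, g ∈ U s ∧ σ * dist z g < σ ∧ (∀ w, dist w g = 1 → s ∉ Pal U w) ∧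
      ∀ u ∈ F, ∃ r : ℝ, 0 < r ∧ r < η ∧ dist (z + r * u) g = 1 := by
  have h1 : ∀ᶠ g in 𝓝 y, ∀ u ∈ F, σ * dist z g < σ →
      ∃ r : ℝ, 0 < r ∧ r < η ∧ dist (z + r * u) g = 1 :=
    (eventually_all_finite hF).2 fun u hu => ray_crossing hσ hzy (hip u hu) hη
  obtain ⟨g, ⟨hgU, hgz⟩, hg1, hgN⟩ := (hg.and_eventually (h1.and hN)).exists
  refine ⟨g, hgN, hgU, hgz, fun w hw hws => ?_, fun u hu => hg1 u hu hgz⟩
  exact h.mx.free s g hgU w hws (by rw [dist_comm]; exact hw)

/-- `s` is frequently absent on every half line of the open half plane -/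
theorem Irr.freq_absent (h : Irr U T) {z y : ℂ} {s : Fin k} {σ : ℝ} (hσ : σ = 1 ∨ σ = -1)
    (hzy : dist z y = 1) (hg : ∃ᶠ g in 𝓝 y, g ∈ U s ∧ σ * dist z g < σ) {u : ℂ}
    (hu : σ * ip u (y - z) < 0) : ∃ᶠ r : ℝ in 𝓝[>] 0, s ∉ Pal U (z + r * u) := by
  rw [frequently_iff]
  intro V hV
  obtain ⟨η, hη, hsub⟩ := (mem_nhdsGT_iff_exists_Ioo_subset).1 hV
  obtain ⟨g, -, -, -, h1, h2⟩ := h.exists_chord hσ hzy hg (F := {u}) (Set.finite_singleton _)
    (by rintro _ rfl; exact hu) (show (0 : ℝ) < η from hη) univ_mem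
  obtain ⟨r, hr0, hr1, hr2⟩ := h2 u rfl
  exact ⟨r, hsub ⟨hr0, hr1⟩, h1 _ hr2⟩

/-- **(H), first part**: another colour accumulates at `z` on every half line of the open half
plane -/
theorem Irr.cover_half (h : Irr U T) {z y : ℂ} {s : Fin k} {σ : ℝ} (hσ : σ = 1 ∨ σ = -1)
    (hzy : dist z y = 1) (hg : ∃ᶠ g in 𝓝 y, g ∈ U s ∧ σ * dist z g < σ) {u : ℂ}
    (hu : σ * ip u (y - z) < 0) : ∃ c, c ≠ s ∧ ∃ᶠ r : ℝ in 𝓝[>] 0, c ∈ T (z + r * u) := by
  by_contra hcon
  push Not at hcon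
  have h1 : ∀ᶠ r : ℝ in 𝓝[>] 0, ∀ c, c ≠ s → c ∉ T (z + r * u) := by
    rw [eventually_all]
    intro c
    by_cases hc : c = s
    · exact Eventually.of_forall fun r h => absurd hc h
    · filter_upwards [hcon c hc] with r hr _ using hr
  obtain ⟨r, hr1, hr2⟩ := ((h.freq_absent hσ hzy hg hu).and_eventually h1).exists
  obtain ⟨c, hc⟩ := h.ne (z + r * u)
  by_cases hcs : c = s
  · exact hr1 (h.sub _ (hcs ▸ hc))
  · exact hr2 c hcs hc

/-- inside the circle near an exact letter the near colour is solid -/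
theorem Irr.solid_near (h : Irr U T) {z q : ℂ} {c c' : Fin k} (hT : T q ⊆ {c, c'})
    (hc' : ∀ᶠ x in 𝓝 q, dist x z < 1 → c' ∉ Pal U x) :
    ∀ᶠ x in 𝓝 q, dist x z < 1 → x ∈ U c := by
  filter_upwards [h.nhd q, hc'] with x h1 h2 h3
  refine h.mem_of_single fun m hm => ?_
  rcases hT (h1 hm) with h4 | h4
  · exact h4
  · exact absurd (h.sub _ (h4 ▸ hm)) (h2 h3)

/-- outside the circle near an exact letter the far colour is solid -/
theorem Irr.solid_far (h : Irr U T) {z q : ℂ} {c c' : Fin k} (hT : T q ⊆ {c, c'})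
    (hc' : ∀ᶠ x in 𝓝 q, 1 < dist x z → c' ∉ Pal U x) :
    ∀ᶠ x in 𝓝 q, 1 < dist x z → x ∈ U c := by
  filter_upwards [h.nhd q, hc'] with x h1 h2 h3
  refine h.mem_of_single fun m hm => ?_
  rcases hT (h1 hm) with h4 | h4
  · exact h4
  · exact absurd (h.sub _ (h4 ▸ hm)) (h2 h3)

/-- the point `q + r u` -/
theorem shift_dist (z q u : ℂ) (r : ℝ) (hq : dist q z = 1) :
    dist (q + r * u) z ^ 2 = 1 + r * (2 * ip u (q - z) + r * ip u u) := by
  rw [sq_dist]
  have h1 : (q.re - z.re) ^ 2 + (q.im - z.im) ^ 2 = 1 := by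
    have := sq_dist q z
    rw [hq] at this
    linarith
  simp [ip]
  linear_combination h1

/-- **near letters**: where `c` accumulates at `z` is in the half plane of the near letter -/
theorem Irr.near_half (h : Irr U T) {z q u : ℂ} {c : Fin k} (hq : dist q z = 1)
    (hc : ∀ᶠ x in 𝓝 q, dist x z < 1 → x ∈ U c)
    (hf : ∃ᶠ r : ℝ in 𝓝[>] 0, c ∈ Pal U (z + r * u)) : 0 ≤ ip u (q - z) := by
  by_contra hcon
  push Not at hcon
  have hlim : Tendsto (fun r : ℝ => q + r * u) (𝓝[>] 0) (𝓝 q) := by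
    have h1 : Continuous fun r : ℝ => q + r * u := by fun_prop
    have h2 := h1.tendsto 0
    rw [Complex.ofReal_zero, zero_mul, add_zero] at h2
    exact h2.mono_left nhdsWithin_le_nhds
  have hneg : ∀ᶠ r : ℝ in 𝓝[>] 0, 2 * ip u (q - z) + r * ip u u < 0 := by
    have h1 : Continuous fun r : ℝ => 2 * ip u (q - z) + r * ip u u := by fun_prop
    have h2 := (h1.tendsto 0).eventually (Iio_mem_nhds (by linarith :
      2 * ip u (q - z) + 0 * ip u u < 0))
    exact h2.filter_mono nhdsWithin_le_nhds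
  obtain ⟨r, hr1, hr2, hr3, hr4⟩ :=
    (hf.and_eventually ((hlim.eventually hc).and (hneg.and self_mem_nhdsWithin))).exists
  have hr0 : (0 : ℝ) < r := hr4
  have h1 := shift_dist z q u r hq
  have h2 : dist (q + r * u) z < 1 := by
    have h3 := dist_nonneg (x := q + r * u) (y := z)
    have h4 : r * (2 * ip u (q - z) + r * ip u u) < 0 := mul_neg_of_pos_of_neg hr0 hr3
    nlinarith
  refine h.mx.free c _ (hr2 h2) _ hr1 ?_
  rw [dist_eq_norm] at hq ⊢
  rw [← hq]
  congr 1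
  ring

/-- **far letters** -/
theorem Irr.far_half (h : Irr U T) {z q u : ℂ} {c : Fin k} (hq : dist q z = 1)
    (hc : ∀ᶠ x in 𝓝 q, 1 < dist x z → x ∈ U c)
    (hf : ∃ᶠ r : ℝ in 𝓝[>] 0, c ∈ Pal U (z + r * u)) : ip u (q - z) ≤ 0 := by
  by_contra hcon
  push Not at hcon
  have hlim : Tendsto (fun r : ℝ => q + r * u) (𝓝[>] 0) (𝓝 q) := by
    have h1 : Continuous fun r : ℝ => q + r * u := by fun_prop
    have h2 := h1.tendsto 0
    rw [Complex.ofReal_zero, zero_mul, add_zero] at h2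
    exact h2.mono_left nhdsWithin_le_nhds
  have huu : 0 ≤ ip u u := by
    unfold ip
    nlinarith [sq_nonneg u.re, sq_nonneg u.im]
  obtain ⟨r, hr1, hr2, hr4⟩ :=
    (hf.and_eventually ((hlim.eventually hc).and self_mem_nhdsWithin)).exists
  have hr0 : (0 : ℝ) < r := hr4
  have h1 := shift_dist z q u r hq
  have h2 : 1 < dist (q + r * u) z := by
    have h3 := dist_nonneg (x := q + r * u) (y := z)
    have h4 : 0 < r * (2 * ip u (q - z) + r * ip u u) :=
      mul_pos hr0 (by have := mul_nonneg hr0.le huu; linarith)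
    nlinarith
  refine h.mx.free c _ (hr2 h2) _ hr1 ?_
  rw [dist_eq_norm] at hq ⊢
  rw [← hq]
  congr 1
  ring

/-- **(H)**: if `z ∉ U s` there is an open half plane every direction `u` of which has a colour `c ≠ s`
accumulating at `z` in the direction `u`, with `u` in the half planes of all exact letters of `c` -/
theorem Irr.half_plane (h : Irr U T) {z : ℂ} {s : Fin k} (hz : z ∉ U s) :
    ∃ m : ℂ, ‖m‖ = 1 ∧ ∀ u, 0 < ip u m → ∃ c, c ≠ s ∧
      (∃ᶠ r : ℝ in 𝓝[>] 0, c ∈ T (z + r * u)) ∧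
      (∀ q, dist q z = 1 → (∀ᶠ x in 𝓝 q, dist x z < 1 → x ∈ U c) → 0 ≤ ip u (q - z)) ∧
      ∀ q, dist q z = 1 → (∀ᶠ x in 𝓝 q, 1 < dist x z → x ∈ U c) → ip u (q - z) ≤ 0 := by
  obtain ⟨y, hzy, -, σ, hσ, hg⟩ := h.exists_side hz
  have hn : ‖y - z‖ = 1 := by rw [← dist_eq_norm, dist_comm]; exact hzy
  refine ⟨((-σ : ℝ) : ℂ) * (y - z), ?_, fun u hu => ?_⟩
  · rw [norm_mul, hn, mul_one, Complex.norm_real]
    rcases hσ with rfl | rfl <;> norm_num
  · have hu' : σ * ip u (y - z) < 0 := by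
      have h1 : ip u (((-σ : ℝ) : ℂ) * (y - z)) = -(σ * ip u (y - z)) := by
        unfold ip
        simp
        ring
      rw [h1] at hu
      linarith
    obtain ⟨c, hcs, hc⟩ := h.cover_half hσ hzy hg hu'
    have hc' : ∃ᶠ r : ℝ in 𝓝[>] 0, c ∈ Pal U (z + r * u) := hc.mono fun r hr => h.sub _ hr
    exact ⟨c, hcs, hc, fun q hq hs => h.near_half hq hs hc', fun q hq hs => h.far_half hq hs hc'⟩

end Vale.Agent.P032.Six
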